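import Mathlib
import Crest.Prelude.Def_ProductShift

/-!
# S0151 (row 113) — shared definitions of the squad (helper96)

`IsCov θ m d W` : the bounded operator `W` on `pairSpace` is the covariant weighted shift
`(W g)(x, k) = m (σ^k x) * g (x, k - d)` (almost everywhere), `σ^k = orbitPoint θ k`.
`tau P = ⟪vacuumVector, P vacuumVector⟫` : the vacuum state.
-/

set_option autoImplicit false

open MeasureTheory Crest.AnalysisR.ProductShift
open scoped ENNReal ComplexConjugate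

namespace Crest.Agent.Helper96.S0151

/-- The shift `(x, k) ↦ (x, k - d)` of the integer coordinate. -/
def shiftMap (d : ℤ) (p : (ℕ → ℝ) × ℤ) : (ℕ → ℝ) × ℤ := (p.1, p.2 - d)

/-- `W` is the covariant weighted shift with multiplier `m` and degree `d`:
`(W g)(x, k) = m (σ^k x) * g (x, k - d)` for almost every `(x, k)`. -/
def IsCov (θ : ℕ → ℝ) (m : (ℕ → ℝ) → ℂ) (d : ℤ) (W : pairSpace →L[ℂ] pairSpace) : Prop :=
  ∀ g : pairSpace, (W g : (ℕ → ℝ) × ℤ → ℂ) =ᵐ[pairMeasure]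
    fun p => m (orbitPoint θ p.2 p.1) * (g : (ℕ → ℝ) × ℤ → ℂ) (p.1, p.2 - d)

/-- Bounded measurable multipliers. -/
def BM (m : (ℕ → ℝ) → ℂ) : Prop := Measurable m ∧ ∃ C : ℝ, ∀ y, ‖m y‖ ≤ C

/-- The vacuum state `P ↦ ⟪ξ, P ξ⟫`. -/
noncomputable def tau (P : pairSpace →L[ℂ] pairSpace) : ℂ :=
  inner ℂ vacuumVector (P vacuumVector)

/-- The multiplier of the weighted shift `T`: `T` is `IsCov θ (wmul θ c) 1`. -/
noncomputable def wmul (θ c : ℕ → ℝ) (y : ℕ → ℝ) : ℂ :=
  ((weight θ c (orbitPoint θ (-1) y) : ℝ) : ℂ)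

/-- Lower bound for the total drop along `n` consecutive steps, first `N` coordinates only. -/
noncomputable def dropSum (θ c : ℕ → ℝ) (N n : ℕ) : ℝ :=
  ∑ i ∈ Finset.range N, c i * (⌊(n : ℝ) * θ i⌋ : ℝ)

end Crest.Agent.Helper96.S0151
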