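import Crest.Agent.Helper96.S0151.Defs

/-!
# S0151 — BLUEPRINT (all `sorry`; NEVER import this file).
Leaves are proved in `Crest/Agent/<Seat>/S0151/<Leaf>.lean`, namespace `Crest.Agent.<Seat>.S0151`,
with the SAME names and signatures as here.
-/

set_option autoImplicit false

open MeasureTheory Crest.AnalysisR.ProductShift
open scoped ENNReal ComplexConjugate

namespace Crest.Agent.Helper96.S0151.Blueprint

open Crest.Agent.Helper96.S0151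

/-! ## Leaf C1 (Rot): the rotation preserves the product measure -/

theorem orbitPoint_orbitPoint (θ : ℕ → ℝ) (a b : ℤ) (x : ℕ → ℝ) :
    orbitPoint θ a (orbitPoint θ b x) = orbitPoint θ (a + b) x := sorry

theorem measurable_orbitPoint (θ : ℕ → ℝ) (k : ℤ) : Measurable (orbitPoint θ k) := sorry

theorem measurable_orbitPoint_prod (θ : ℕ → ℝ) :
    Measurable (fun p : (ℕ → ℝ) × ℤ => orbitPoint θ p.2 p.1) := sorry

theorem measurePreserving_orbitPoint (θ : ℕ → ℝ) (k : ℤ) :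
    MeasurePreserving (orbitPoint θ k) cubeMeasure cubeMeasure := sorry

/-! ## Leaf C2 (Shift): the index shift preserves `pairMeasure` -/

theorem measurePreserving_shiftMap (d : ℤ) :
    MeasurePreserving (shiftMap d) pairMeasure pairMeasure := sorry

/-! ## Leaf C3 (CovAlg): algebra of covariant shifts -/

theorem isCov_one (θ : ℕ → ℝ) : IsCov θ (fun _ => 1) 0 (1 : pairSpace →L[ℂ] pairSpace) := sorry

theorem IsCov.mul {θ : ℕ → ℝ} {m₁ m₂ : (ℕ → ℝ) → ℂ} {d₁ d₂ : ℤ}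
    {W₁ W₂ : pairSpace →L[ℂ] pairSpace} (h₁ : IsCov θ m₁ d₁ W₁) (h₂ : IsCov θ m₂ d₂ W₂) :
    IsCov θ (fun y => m₁ y * m₂ (orbitPoint θ (-d₁) y)) (d₁ + d₂) (W₁ * W₂) := sorry

theorem IsCov.add {θ : ℕ → ℝ} {m₁ m₂ : (ℕ → ℝ) → ℂ} {d : ℤ}
    {W₁ W₂ : pairSpace →L[ℂ] pairSpace} (h₁ : IsCov θ m₁ d W₁) (h₂ : IsCov θ m₂ d W₂) :
    IsCov θ (fun y => m₁ y + m₂ y) d (W₁ + W₂) := sorry

theorem IsCov.smul {θ : ℕ → ℝ} {m : (ℕ → ℝ) → ℂ} {d : ℤ} {W : pairSpace →L[ℂ] pairSpace}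
    (a : ℂ) (h : IsCov θ m d W) : IsCov θ (fun y => a * m y) d (a • W) := sorry

/-- only the values of `m` on the range of `orbitPoint` matter -/
theorem IsCov.congr {θ : ℕ → ℝ} {m m' : (ℕ → ℝ) → ℂ} {d : ℤ} {W : pairSpace →L[ℂ] pairSpace}
    (h : IsCov θ m d W) (hm : ∀ y, m' (orbitPoint θ 0 y) = m (orbitPoint θ 0 y)) :
    IsCov θ m' d W := sorry

theorem IsCov.norm_le {θ : ℕ → ℝ} {m : (ℕ → ℝ) → ℂ} {d : ℤ} {W : pairSpace →L[ℂ] pairSpace}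
    (h : IsCov θ m d W) (C : ℝ) (hC : ∀ y, ‖m y‖ ≤ C) : ‖W‖ ≤ C := sorry

/-! ## Leaf C4 (Adj): adjoint of a covariant shift -/

theorem IsCov.adjoint {θ : ℕ → ℝ} {m : (ℕ → ℝ) → ℂ} {d : ℤ} {W : pairSpace →L[ℂ] pairSpace}
    (h : IsCov θ m d W) (hm : BM m) :
    IsCov θ (fun y => conj (m (orbitPoint θ d y))) (-d) (ContinuousLinearMap.adjoint W) := sorry

/-! ## Leaf C5 (Tau): the vacuum state of a covariant shift -/

theorem norm_vacuumVector : ‖vacuumVector‖ = 1 := sorry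

theorem IsCov.tau_eq {θ : ℕ → ℝ} {m : (ℕ → ℝ) → ℂ} {d : ℤ} {W : pairSpace →L[ℂ] pairSpace}
    (h : IsCov θ m d W) (hm : BM m) :
    tau W = if d = 0 then ∫ y, m y ∂cubeMeasure else 0 := sorry

/-! ## Leaf C6 (Weight): the weight along an orbit -/

theorem measurable_weight (θ c : ℕ → ℝ) : Measurable (weight θ c) := sorry

theorem weight_nonneg (θ c : ℕ → ℝ) (x : ℕ → ℝ) : 0 ≤ weight θ c x := sorry

theorem weight_le_one (θ c : ℕ → ℝ) (x : ℕ → ℝ) : weight θ c x ≤ 1 := sorry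

/-- telescoping: `⌊fract u + t⌋ = ⌊u + t⌋ - ⌊u⌋`, so `n` consecutive weights along an orbit
multiply to at most `exp (- ∑_{i<N} c_i ⌊n θ_i⌋)`, for EVERY point `y`. -/
theorem weight_prod_le (θ c : ℕ → ℝ) (hθ : ∀ i, 0 < θ i ∧ θ i < 1) (hc : ∀ i, 0 ≤ c i)
    (N n : ℕ) (y : ℕ → ℝ) :
    ∏ j ∈ Finset.range n, weight θ c (orbitPoint θ (-1 - (j : ℤ)) y)
      ≤ Real.exp (- dropSum θ c N n) := sorry

/-- `hlog` forces `∑ c_i θ_i = ∞` (`lintegral_tsum`, `∫ ⌊x + θ⌋ dx = θ` on `[0,1)`). -/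
theorem sum_unbounded (θ c : ℕ → ℝ) (hθ : ∀ i, 0 < θ i ∧ θ i < 1) (hc : ∀ i, 0 ≤ c i)
    (hlog : ∫⁻ x, ENNReal.ofReal (- Real.log (weight θ c x)) ∂cubeMeasure = ⊤) :
    ∀ M : ℝ, ∃ N : ℕ, M ≤ ∑ i ∈ Finset.range N, c i * θ i := sorry

theorem dropSum_rate (θ c : ℕ → ℝ) (hθ : ∀ i, 0 < θ i ∧ θ i < 1) (hc : ∀ i, 0 ≤ c i)
    (hlog : ∫⁻ x, ENNReal.ofReal (- Real.log (weight θ c x)) ∂cubeMeasure = ⊤) :
    ∀ r : ℝ, 0 < r → ∃ N n₀ : ℕ, ∀ n ≥ n₀, Real.exp (- dropSum θ c N n) ≤ r ^ n := sorry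

/-! ## Leaf C7 (Trace): the vacuum state is a trace on the *-algebra generated by `T` -/

theorem isCov_T (θ c : ℕ → ℝ) (T : pairSpace →L[ℂ] pairSpace) (hT : IsWeightedShift θ c T) :
    IsCov θ (wmul θ c) 1 T := sorry

theorem bm_wmul (θ c : ℕ → ℝ) : BM (wmul θ c) := sorry

theorem tau_comm (θ c : ℕ → ℝ) (T : pairSpace →L[ℂ] pairSpace) (hT : IsWeightedShift θ c T)
    (P : pairSpace →L[ℂ] pairSpace) (hP : P ∈ StarAlgebra.adjoin ℂ {T})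
    (Q : pairSpace →L[ℂ] pairSpace) (hQ : Q ∈ StarAlgebra.adjoin ℂ {T}) :
    tau (P * Q) = tau (Q * P) := sorry

/-! ## Leaf C8 (Quasi): `T` is quasinilpotent and its moments vanish -/

theorem norm_pow_le (θ c : ℕ → ℝ) (hθ : ∀ i, 0 < θ i ∧ θ i < 1) (hc : ∀ i, 0 ≤ c i)
    (T : pairSpace →L[ℂ] pairSpace) (hT : IsWeightedShift θ c T) (N n : ℕ) :
    ‖T ^ n‖ ≤ Real.exp (- dropSum θ c N n) := sorry

theorem tau_pow (θ c : ℕ → ℝ) (T : pairSpace →L[ℂ] pairSpace) (hT : IsWeightedShift θ c T)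
    (n : ℕ) (hn : 1 ≤ n) : tau (T ^ n) = 0 := sorry

/-! ## Leaves C9a, C9b, C9c (Zero): the case `z = 0` -/

/-- C9a: polynomials of `T*T + ε` are multipliers; their vacuum expectation is an integral. -/
theorem tau_aeval_Meps (θ c : ℕ → ℝ) (T : pairSpace →L[ℂ] pairSpace)
    (hT : IsWeightedShift θ c T) (ε : ℝ) (hε : 0 < ε) (p : Polynomial ℝ) :
    tau (Polynomial.aeval (star T * T + ((ε : ℝ) : ℂ) • (1 : pairSpace →L[ℂ] pairSpace)) p)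
      = ((∫ y, p.eval ((weight θ c y) ^ 2 + ε) ∂cubeMeasure : ℝ) : ℂ) := sorry

/-- C9a: `‖T‖ ≤ 1`. -/
theorem norm_T_le_one (θ c : ℕ → ℝ) (T : pairSpace →L[ℂ] pairSpace)
    (hT : IsWeightedShift θ c T) : ‖T‖ ≤ 1 := sorry

/-- C9b: monotone convergence with `hpos`, `hlog`. -/
theorem integral_log_unbounded (θ c : ℕ → ℝ)
    (hpos : ∀ᵐ x ∂cubeMeasure, 0 < weight θ c x)
    (hlog : ∫⁻ x, ENNReal.ofReal (- Real.log (weight θ c x)) ∂cubeMeasure = ⊤) :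
    ∀ M : ℝ, ∃ ε : ℝ, 0 < ε ∧ ε ≤ 1 ∧
      ∫ y, Real.log ((weight θ c y) ^ 2 + ε) ∂cubeMeasure ≤ -M := sorry

/-- C9c: assembly of the case `z = 0` (Weierstrass + `cfc_mono`). -/

theorem vectorDet_zero (θ c : ℕ → ℝ) (hθ : ∀ i, 0 < θ i ∧ θ i < 1) (hc : ∀ i, 0 ≤ c i)
    (hpos : ∀ᵐ x ∂cubeMeasure, 0 < weight θ c x)
    (hlog : ∫⁻ x, ENNReal.ofReal (- Real.log (weight θ c x)) ∂cubeMeasure = ⊤)
    (T : pairSpace →L[ℂ] pairSpace) (hT : IsWeightedShift θ c T) :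
    vectorDet vacuumVector T = 0 := sorry

/-! ## Abstract leaves (any complex Hilbert space; no measure theory) -/

section Abstract

variable {H : Type*} [NormedAddCommGroup H] [InnerProductSpace ℂ H] [CompleteSpace H]

/-- Leaf A0 (Neumann): `1 - B` is invertible when `∑ ‖B ^ n‖ < ∞`. -/
theorem one_sub_mul_tsum (B : H →L[ℂ] H) (hB : Summable fun n : ℕ => ‖B ^ n‖) :
    (1 - B) * ∑' n : ℕ, B ^ n = 1 ∧ (∑' n : ℕ, B ^ n) * (1 - B) = 1 := sorry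

/-- Leaf A0 (Neumann). -/
theorem norm_le_tsum_mul_norm_one_sub (B : H →L[ℂ] H) (hB : Summable fun n : ℕ => ‖B ^ n‖)
    (v : H) : ‖v‖ ≤ (∑' n : ℕ, ‖B ^ n‖) * ‖(1 - B) v‖ := sorry

/-- Leaf A0 (Spec): spectrum of `A* A` for `A` bounded below. -/
theorem spectrum_star_mul_self_subset (A : H →L[ℂ] H) (a : ℝ) (ha : 0 ≤ a)
    (hA : ∀ v, a * ‖v‖ ≤ ‖A v‖) :
    spectrum ℝ (star A * A) ⊆ Set.Icc (a ^ 2) (‖A‖ ^ 2) := sorry

/-- Leaf A0 (Order): the quadratic form is monotone. -/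
theorem re_inner_le_of_le (ξ : H) (P Q : H →L[ℂ] H) (h : P ≤ Q) :
    RCLike.re (inner ℂ ξ (P ξ)) ≤ RCLike.re (inner ℂ ξ (Q ξ)) := sorry

/-- Leaf A1 (DetInv): for `A` bounded below the infimum over `ε` is attained in the limit. -/
theorem vectorDet_of_bddBelow (ξ : H) (A : H →L[ℂ] H) (a : ℝ) (ha : 0 < a)
    (hA : ∀ v, a * ‖v‖ ≤ ‖A v‖) :
    vectorDet ξ A
      = Real.exp (RCLike.re (inner ℂ ξ (cfc Real.log (star A * A) ξ)) / 2) := sorry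

/-- Leaf A2 (FK): the Fuglede–Kadison identity along the path `1 - t B`. -/
theorem fk_zero (ξ : H) (B : H →L[ℂ] H) (hB : Summable fun n : ℕ => ‖B ^ n‖)
    (htr : ∀ P ∈ StarAlgebra.adjoin ℂ {B}, ∀ Q ∈ StarAlgebra.adjoin ℂ {B},
      inner ℂ ξ ((P * Q) ξ) = inner ℂ ξ ((Q * P) ξ))
    (hmom : ∀ n : ℕ, 1 ≤ n → inner ℂ ξ ((B ^ n) ξ) = 0) :
    inner ℂ ξ (cfc Real.log (star (1 - B) * (1 - B)) ξ) = 0 := sorry

/-- Leaf A3 (Main): the case `z ≠ 0`, from A1 and A2. -/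
theorem vectorDet_sub_smul (ξ : H) (hξ : ‖ξ‖ = 1) (T : H →L[ℂ] H)
    (hq : ∀ r : ℝ, 0 < r → ∃ n₀ : ℕ, ∀ n ≥ n₀, ‖T ^ n‖ ≤ r ^ n)
    (htr : ∀ P ∈ StarAlgebra.adjoin ℂ {T}, ∀ Q ∈ StarAlgebra.adjoin ℂ {T},
      inner ℂ ξ ((P * Q) ξ) = inner ℂ ξ ((Q * P) ξ))
    (hmom : ∀ n : ℕ, 1 ≤ n → inner ℂ ξ ((T ^ n) ξ) = 0) (z : ℂ) (hz : z ≠ 0) :
    vectorDet ξ (T - z • (1 : H →L[ℂ] H)) = ‖z‖ := sorry

end Abstract

end Crest.Agent.Helper96.S0151.Blueprint
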