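import Crest.Agent.Helper69.S0151.Neumann

/-!
# S0151, leaf A2 (FK): the Fuglede–Kadison identity along the path `1 - t B` (helper96)

`fk_zero`: if `∑ ‖B ^ n‖ < ∞`, the vector functional `τ = ⟪ξ, · ξ⟫` is tracial on the
star-algebra generated by `B`, and `τ(B ^ n) = 0` for `n ≥ 1`, then
`τ(log((1 - B)* (1 - B))) = 0`.

Proof (own derivation; only the names Fuglede–Kadison / Brown are recalled): along
`Y t = (1 - t B)* (1 - t B)`, `t ∈ [0,1]`, the spectrum stays in a fixed `[a, b]`, `a > 0`;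
for a polynomial `P` with `P' = q ≈ 1/x` on `[a, b]` (Weierstrass),
`d/dt τ(P(Y t)) = τ(q(Y t) Y' t)` by traciality, and `τ(Y⁻¹ Y') = 0` by the Neumann series
and the vanishing moments; the mean value inequality and `norm_cfc_le` finish.
Uses leaf A0 (helper69: Neumann series and spectrum of `A* A`).
-/

set_option autoImplicit false

open scoped ComplexConjugate

namespace Crest.Agent.Helper96.S0151

variable {H : Type*} [NormedAddCommGroup H] [InnerProductSpace ℂ H] [CompleteSpace H]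

/-- the vector functional `P ↦ ⟪ξ, P ξ⟫` as a continuous linear map -/
noncomputable def vst (ξ : H) : (H →L[ℂ] H) →L[ℂ] ℂ :=
  (innerSL ℂ ξ).comp (ContinuousLinearMap.apply ℂ H ξ)

theorem vst_apply (ξ : H) (P : H →L[ℂ] H) : vst ξ P = inner ℂ ξ (P ξ) := rfl

theorem norm_vst_le (ξ : H) (P : H →L[ℂ] H) : ‖vst ξ P‖ ≤ ‖ξ‖ ^ 2 * ‖P‖ := by
  rw [vst_apply]
  calc ‖inner ℂ ξ (P ξ)‖ ≤ ‖ξ‖ * ‖P ξ‖ := norm_inner_le_norm _ _
    _ ≤ ‖ξ‖ * (‖P‖ * ‖ξ‖) := by gcongr; exact P.le_opNorm ξ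
    _ = ‖ξ‖ ^ 2 * ‖P‖ := by ring

theorem vst_star (ξ : H) (P : H →L[ℂ] H) : vst ξ (star P) = conj (vst ξ P) := by
  rw [vst_apply, vst_apply, ContinuousLinearMap.star_eq_adjoint,
    ContinuousLinearMap.adjoint_inner_right, inner_conj_symm]

theorem vst_algebraMap_mul (ξ : H) (a : ℝ) (P : H →L[ℂ] H) :
    vst ξ (algebraMap ℝ (H →L[ℂ] H) a * P) = (a : ℂ) * vst ξ P := by
  rw [← Algebra.smul_def, ← Complex.coe_smul, map_smul, smul_eq_mul]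

/-- the trace property passes to the norm closure -/
theorem tr_closure (ξ : H) (B : H →L[ℂ] H)
    (htr : ∀ P ∈ StarAlgebra.adjoin ℂ {B}, ∀ Q ∈ StarAlgebra.adjoin ℂ {B},
      vst ξ (P * Q) = vst ξ (Q * P)) :
    ∀ P ∈ (StarAlgebra.adjoin ℂ {B}).topologicalClosure,
      ∀ Q ∈ (StarAlgebra.adjoin ℂ {B}).topologicalClosure,
      vst ξ (P * Q) = vst ξ (Q * P) := by
  have h1 : ∀ Q ∈ StarAlgebra.adjoin ℂ {B},
      ∀ P ∈ (StarAlgebra.adjoin ℂ {B}).topologicalClosure, vst ξ (P * Q) = vst ξ (Q * P) := by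
    intro Q hQ P hP
    have hP' : P ∈ closure ((StarAlgebra.adjoin ℂ {B} : StarSubalgebra ℂ (H →L[ℂ] H)) : Set (H →L[ℂ] H)) := by
      rw [← StarSubalgebra.topologicalClosure_coe]; exact hP
    have hcl : IsClosed {P : H →L[ℂ] H | vst ξ (P * Q) = vst ξ (Q * P)} :=
      isClosed_eq (by fun_prop) (by fun_prop)
    exact closure_minimal (fun P hP => htr P hP Q hQ) hcl hP'
  intro P hP Q hQ
  have hQ' : Q ∈ closure ((StarAlgebra.adjoin ℂ {B} : StarSubalgebra ℂ (H →L[ℂ] H)) : Set (H →L[ℂ] H)) := by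
    rw [← StarSubalgebra.topologicalClosure_coe]; exact hQ
  have hcl : IsClosed {Q : H →L[ℂ] H | vst ξ (P * Q) = vst ξ (Q * P)} :=
    isClosed_eq (by fun_prop) (by fun_prop)
  exact closure_minimal (fun Q hQ => h1 Q hQ P hP) hcl hQ'

/-- existence of a polynomial antiderivative -/
theorem exists_antideriv (q : Polynomial ℝ) : ∃ P : Polynomial ℝ, Polynomial.derivative P = q := by
  induction q using Polynomial.induction_on' with
  | add p q hp hq =>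
    obtain ⟨P, hP⟩ := hp
    obtain ⟨Q, hQ⟩ := hq
    exact ⟨P + Q, by rw [Polynomial.derivative_add, hP, hQ]⟩
  | monomial n a =>
    refine ⟨Polynomial.monomial (n + 1) (a / (n + 1)), ?_⟩
    rw [Polynomial.derivative_monomial]
    have h : (n : ℝ) + 1 ≠ 0 := by positivity
    congr 1
    push_cast
    field_simp


/-! ### the A0 statements (helper69's leaf) under local names -/
section A0local

theorem A0_one_sub_mul_tsum (B : H →L[ℂ] H) (hB : Summable fun n : ℕ => ‖B ^ n‖) :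
    (1 - B) * ∑' n : ℕ, B ^ n = 1 ∧ (∑' n : ℕ, B ^ n) * (1 - B) = 1 :=
  Crest.Agent.Helper69.S0151.one_sub_mul_tsum B hB

theorem A0_norm_le_tsum_mul_norm_one_sub (B : H →L[ℂ] H) (hB : Summable fun n : ℕ => ‖B ^ n‖)
    (v : H) : ‖v‖ ≤ (∑' n : ℕ, ‖B ^ n‖) * ‖(1 - B) v‖ :=
  Crest.Agent.Helper69.S0151.norm_le_tsum_mul_norm_one_sub B hB v

theorem A0_spectrum_star_mul_self_subset (A : H →L[ℂ] H) (a : ℝ) (ha : 0 ≤ a)
    (hA : ∀ v, a * ‖v‖ ≤ ‖A v‖) :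
    spectrum ℝ (star A * A) ⊆ Set.Icc (a ^ 2) (‖A‖ ^ 2) :=
  Crest.Agent.Helper69.S0151.spectrum_star_mul_self_subset A a ha hA

end A0local

/-! ### the path `X t = 1 - t B`, `Y t = X t* X t` -/

/-- `X t = 1 - t B` -/
noncomputable def pX (B : H →L[ℂ] H) (t : ℝ) : H →L[ℂ] H := 1 - (t : ℂ) • B

/-- `Y t = (X t)* (X t)` -/
noncomputable def pY (B : H →L[ℂ] H) (t : ℝ) : H →L[ℂ] H := star (pX B t) * pX B t

/-- the derivative of `Y` -/
noncomputable def pYd (B : H →L[ℂ] H) (t : ℝ) : H →L[ℂ] H :=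
  -(star B * pX B t + star (pX B t) * B)

theorem star_pX (B : H →L[ℂ] H) (t : ℝ) : star (pX B t) = pX (star B) t := by
  simp [pX, star_sub, star_smul]

theorem hasDerivAt_pX (B : H →L[ℂ] H) (t : ℝ) : HasDerivAt (pX B) (-B) t := by
  have h1 : HasDerivAt (fun s : ℝ => (s : ℂ)) 1 t := by
    simpa using (hasDerivAt_id t).ofReal_comp
  have h2 : HasDerivAt (fun s : ℝ => (s : ℂ) • B) ((1 : ℂ) • B) t := h1.smul_const B
  have h3 := (hasDerivAt_const t (1 : H →L[ℂ] H)).fun_sub h2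
  rw [one_smul, zero_sub] at h3
  exact h3

theorem hasDerivAt_pY (B : H →L[ℂ] H) (t : ℝ) : HasDerivAt (pY B) (pYd B t) t := by
  have h1 : HasDerivAt (fun s => star (pX B s)) (-star B) t := by
    simpa only [star_pX] using hasDerivAt_pX (star B) t
  have h2 := h1.fun_mul (hasDerivAt_pX B t)
  have h3 : pYd B t = -star B * pX B t + star (pX B t) * -B := by
    simp [pYd]; abel
  rw [h3]
  exact h2

theorem pX_mem (B : H →L[ℂ] H) (t : ℝ) : pX B t ∈ StarAlgebra.adjoin ℂ {B} := by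
  refine sub_mem (one_mem _) ?_
  exact SMulMemClass.smul_mem _ (StarAlgebra.self_mem_adjoin_singleton ℂ B)

theorem pY_mem (B : H →L[ℂ] H) (t : ℝ) : pY B t ∈ StarAlgebra.adjoin ℂ {B} :=
  mul_mem (star_mem (pX_mem B t)) (pX_mem B t)

theorem pYd_mem (B : H →L[ℂ] H) (t : ℝ) : pYd B t ∈ StarAlgebra.adjoin ℂ {B} := by
  refine neg_mem (add_mem (mul_mem (star_mem ?_) (pX_mem B t)) (mul_mem (star_mem (pX_mem B t)) ?_))
  · exact StarAlgebra.self_mem_adjoin_singleton ℂ B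
  · exact StarAlgebra.self_mem_adjoin_singleton ℂ B

theorem pY_zero (B : H →L[ℂ] H) : pY B 0 = 1 := by
  simp [pY, pX]

theorem pY_one (B : H →L[ℂ] H) : pY B 1 = star (1 - B) * (1 - B) := by
  simp [pY, pX]

theorem isSelfAdjoint_pY (B : H →L[ℂ] H) (t : ℝ) : IsSelfAdjoint (pY B t) :=
  IsSelfAdjoint.star_mul_self _

/-! ### derivative of powers along a path, and the trace -/

/-- the derivative of `Y ^ k` -/
noncomputable def pD (Y Yd : H →L[ℂ] H) : ℕ → (H →L[ℂ] H)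
  | 0 => 0
  | k + 1 => pD Y Yd k * Y + Y ^ k * Yd

theorem hasDerivAt_pow_path {Y : ℝ → H →L[ℂ] H} {Yd : H →L[ℂ] H} {t : ℝ}
    (h : HasDerivAt Y Yd t) (k : ℕ) :
    HasDerivAt (fun s => Y s ^ k) (pD (Y t) Yd k) t := by
  induction k with
  | zero => simpa [pD] using hasDerivAt_const t (1 : H →L[ℂ] H)
  | succ k ih =>
    have := ih.fun_mul h
    simpa only [pow_succ, pD] using this

theorem vst_pD_mul (ξ : H) (𝒜 : StarSubalgebra ℂ (H →L[ℂ] H))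
    (htr : ∀ P ∈ 𝒜, ∀ Q ∈ 𝒜, vst ξ (P * Q) = vst ξ (Q * P))
    {Y Yd : H →L[ℂ] H} (hY : Y ∈ 𝒜) (hYd : Yd ∈ 𝒜) (k j : ℕ) :
    vst ξ (pD Y Yd k * Y ^ (j + 1)) = (k : ℂ) * vst ξ (Y ^ (k + j) * Yd) := by
  induction k generalizing j with
  | zero => simp [pD]
  | succ k ih =>
    have h1 : pD Y Yd (k + 1) * Y ^ (j + 1)
        = pD Y Yd k * Y ^ (j + 1 + 1) + (Y ^ k * Yd) * Y ^ (j + 1) := by
      simp only [pD, add_mul]
      rw [mul_assoc (pD Y Yd k) Y, ← pow_succ']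
    have h2 : Y ^ (j + 1) * (Y ^ k * Yd) = Y ^ (k + 1 + j) * Yd := by
      rw [← mul_assoc, ← pow_add]
      congr 2
      omega
    have h3 : k + (j + 1) = k + 1 + j := by omega
    rw [h1, map_add, ih (j + 1), htr _ (mul_mem (pow_mem hY k) hYd) _ (pow_mem hY (j + 1)),
      h2, h3]
    push_cast
    ring

theorem vst_pD_succ (ξ : H) (𝒜 : StarSubalgebra ℂ (H →L[ℂ] H))
    (htr : ∀ P ∈ 𝒜, ∀ Q ∈ 𝒜, vst ξ (P * Q) = vst ξ (Q * P))
    {Y Yd : H →L[ℂ] H} (hY : Y ∈ 𝒜) (hYd : Yd ∈ 𝒜) (k : ℕ) :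
    vst ξ (pD Y Yd (k + 1)) = ((k : ℂ) + 1) * vst ξ (Y ^ k * Yd) := by
  have h := vst_pD_mul ξ 𝒜 htr hY hYd k 0
  rw [zero_add, pow_one, add_zero] at h
  simp only [pD, map_add]
  rw [h]
  ring

theorem hasDerivAt_vst_aeval (ξ : H) (𝒜 : StarSubalgebra ℂ (H →L[ℂ] H))
    (htr : ∀ P ∈ 𝒜, ∀ Q ∈ 𝒜, vst ξ (P * Q) = vst ξ (Q * P))
    {Y : ℝ → H →L[ℂ] H} {Yd : H →L[ℂ] H} {t : ℝ} (h : HasDerivAt Y Yd t)
    (hY : Y t ∈ 𝒜) (hYd : Yd ∈ 𝒜) (p : Polynomial ℝ) :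
    HasDerivAt (fun s => vst ξ (Polynomial.aeval (Y s) p))
      (vst ξ (Polynomial.aeval (Y t) (Polynomial.derivative p) * Yd)) t := by
  induction p using Polynomial.induction_on' with
  | add p q hp hq =>
    simpa only [map_add, add_mul, Polynomial.derivative_add] using hp.fun_add hq
  | monomial n a =>
    have hD := hasDerivAt_pow_path h n
    have h1 : HasDerivAt (fun s => algebraMap ℝ (H →L[ℂ] H) a * Y s ^ n)
        (algebraMap ℝ (H →L[ℂ] H) a * pD (Y t) Yd n) t := hD.const_mul _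
    have h2 := ((vst ξ).restrictScalars ℝ).hasFDerivAt.comp_hasDerivAt t h1
    have h3 : HasDerivAt (fun s => vst ξ (Polynomial.aeval (Y s) (Polynomial.monomial n a)))
        (vst ξ (algebraMap ℝ (H →L[ℂ] H) a * pD (Y t) Yd n)) t := by
      simpa only [Polynomial.aeval_monomial, Function.comp_def,
        ContinuousLinearMap.coe_restrictScalars'] using h2
    convert h3 using 1
    rw [Polynomial.derivative_monomial, Polynomial.aeval_monomial, mul_assoc,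
      vst_algebraMap_mul, vst_algebraMap_mul]
    cases n with
    | zero => simp [pD]
    | succ k =>
      rw [vst_pD_succ ξ 𝒜 htr hY hYd k]
      simp
      ring


/-! ### the Neumann series along the path -/

theorem norm_smul_pow_le (B : H →L[ℂ] H) {t : ℝ} (ht0 : 0 ≤ t) (ht1 : t ≤ 1) (n : ℕ) :
    ‖((t : ℂ) • B) ^ n‖ ≤ ‖B ^ n‖ := by
  rw [smul_pow, norm_smul, norm_pow, Complex.norm_real, Real.norm_of_nonneg ht0]
  calc t ^ n * ‖B ^ n‖ ≤ 1 * ‖B ^ n‖ := by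
        gcongr
        exact pow_le_one₀ ht0 ht1
    _ = ‖B ^ n‖ := one_mul _

theorem summable_norm_smul_pow (B : H →L[ℂ] H) (hB : Summable fun n : ℕ => ‖B ^ n‖)
    {t : ℝ} (ht0 : 0 ≤ t) (ht1 : t ≤ 1) :
    Summable fun n : ℕ => ‖((t : ℂ) • B) ^ n‖ :=
  Summable.of_nonneg_of_le (fun _ => norm_nonneg _) (norm_smul_pow_le B ht0 ht1) hB

theorem tsum_norm_smul_pow_le (B : H →L[ℂ] H) (hB : Summable fun n : ℕ => ‖B ^ n‖)
    {t : ℝ} (ht0 : 0 ≤ t) (ht1 : t ≤ 1) :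
    ∑' n : ℕ, ‖((t : ℂ) • B) ^ n‖ ≤ ∑' n : ℕ, ‖B ^ n‖ :=
  Summable.tsum_le_tsum (norm_smul_pow_le B ht0 ht1) (summable_norm_smul_pow B hB ht0 ht1) hB

/-- the Neumann series `R t = ∑ (t B)^n` -/
noncomputable def pR (B : H →L[ℂ] H) (t : ℝ) : H →L[ℂ] H := ∑' n : ℕ, ((t : ℂ) • B) ^ n

theorem norm_pR_le (B : H →L[ℂ] H) (hB : Summable fun n : ℕ => ‖B ^ n‖)
    {t : ℝ} (ht0 : 0 ≤ t) (ht1 : t ≤ 1) : ‖pR B t‖ ≤ ∑' n : ℕ, ‖B ^ n‖ :=
  (norm_tsum_le_tsum_norm (summable_norm_smul_pow B hB ht0 ht1)).trans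
    (tsum_norm_smul_pow_le B hB ht0 ht1)

theorem pX_mul_pR (B : H →L[ℂ] H) (hB : Summable fun n : ℕ => ‖B ^ n‖)
    {t : ℝ} (ht0 : 0 ≤ t) (ht1 : t ≤ 1) : pX B t * pR B t = 1 :=
  (A0_one_sub_mul_tsum _ (summable_norm_smul_pow B hB ht0 ht1)).1

theorem pR_mul_pX (B : H →L[ℂ] H) (hB : Summable fun n : ℕ => ‖B ^ n‖)
    {t : ℝ} (ht0 : 0 ≤ t) (ht1 : t ≤ 1) : pR B t * pX B t = 1 :=
  (A0_one_sub_mul_tsum _ (summable_norm_smul_pow B hB ht0 ht1)).2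

theorem pR_mem_closure (B : H →L[ℂ] H) (hB : Summable fun n : ℕ => ‖B ^ n‖)
    {t : ℝ} (ht0 : 0 ≤ t) (ht1 : t ≤ 1) :
    pR B t ∈ (StarAlgebra.adjoin ℂ {B}).topologicalClosure := by
  have hs : Summable fun n : ℕ => ((t : ℂ) • B) ^ n :=
    (summable_norm_smul_pow B hB ht0 ht1).of_norm
  have hcl : IsClosed ((StarAlgebra.adjoin ℂ {B}).topologicalClosure : Set (H →L[ℂ] H)) :=
    StarSubalgebra.isClosed_topologicalClosure _
  refine hcl.mem_of_tendsto hs.hasSum.tendsto_sum_nat (Filter.Eventually.of_forall fun n => ?_)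
  refine sum_mem fun i _ => ?_
  exact (StarSubalgebra.le_topologicalClosure _)
    (pow_mem (SMulMemClass.smul_mem _ (StarAlgebra.self_mem_adjoin_singleton ℂ B)) i)

theorem vst_mul_pR (ξ : H) (B : H →L[ℂ] H) (hB : Summable fun n : ℕ => ‖B ^ n‖)
    (hmom : ∀ n : ℕ, 1 ≤ n → vst ξ (B ^ n) = 0)
    {t : ℝ} (ht0 : 0 ≤ t) (ht1 : t ≤ 1) :
    vst ξ (B * pR B t) = 0 ∧ vst ξ (pR B t * B) = 0 := by
  have hs : Summable fun n : ℕ => ((t : ℂ) • B) ^ n :=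
    (summable_norm_smul_pow B hB ht0 ht1).of_norm
  constructor
  · rw [pR, ← hs.tsum_mul_left, (vst ξ).map_tsum (hs.mul_left B)]
    have h0 : ∀ n : ℕ, vst ξ (B * ((t : ℂ) • B) ^ n) = 0 := by
      intro n
      rw [smul_pow, mul_smul_comm, ← pow_succ', map_smul, hmom (n + 1) (by omega), smul_zero]
    simp only [h0, tsum_zero]
  · rw [pR, ← hs.tsum_mul_right, (vst ξ).map_tsum (hs.mul_right B)]
    have h0 : ∀ n : ℕ, vst ξ (((t : ℂ) • B) ^ n * B) = 0 := by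
      intro n
      rw [smul_pow, smul_mul_assoc, ← pow_succ, map_smul, hmom (n + 1) (by omega), smul_zero]
    simp only [h0, tsum_zero]

/-- step (i): `τ(Y⁻¹ Y') = 0` -/
theorem vst_RRYd (ξ : H) (B : H →L[ℂ] H) (hB : Summable fun n : ℕ => ‖B ^ n‖)
    (htr : ∀ P ∈ (StarAlgebra.adjoin ℂ {B}).topologicalClosure,
      ∀ Q ∈ (StarAlgebra.adjoin ℂ {B}).topologicalClosure, vst ξ (P * Q) = vst ξ (Q * P))
    (hmom : ∀ n : ℕ, 1 ≤ n → vst ξ (B ^ n) = 0)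
    {t : ℝ} (ht0 : 0 ≤ t) (ht1 : t ≤ 1) :
    vst ξ (pR B t * star (pR B t) * pYd B t) = 0 := by
  have hXR : pX B t * pR B t = 1 := pX_mul_pR B hB ht0 ht1
  have hsRX : star (pR B t) * star (pX B t) = 1 := by rw [← star_mul, hXR, star_one]
  have hRm : pR B t ∈ (StarAlgebra.adjoin ℂ {B}).topologicalClosure :=
    pR_mem_closure B hB ht0 ht1
  have hXm : pX B t ∈ (StarAlgebra.adjoin ℂ {B}).topologicalClosure :=
    (StarSubalgebra.le_topologicalClosure _) (pX_mem B t)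
  have hBm : B ∈ (StarAlgebra.adjoin ℂ {B}).topologicalClosure :=
    (StarSubalgebra.le_topologicalClosure _) (StarAlgebra.self_mem_adjoin_singleton ℂ B)
  obtain ⟨m1, m2⟩ := vst_mul_pR ξ B hB hmom ht0 ht1
  have e1 : pR B t * star (pR B t) * pYd B t
      = -((pR B t * star (pR B t) * star B) * pX B t) - pR B t * B := by
    calc pR B t * star (pR B t) * pYd B t
        = -((pR B t * star (pR B t) * star B) * pX B t)
          - pR B t * (star (pR B t) * star (pX B t)) * B := by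
          rw [pYd]; noncomm_ring
      _ = _ := by rw [hsRX, mul_one]
  have e2 : pX B t * (pR B t * star (pR B t) * star B) = star (B * pR B t) := by
    rw [star_mul, ← mul_assoc, ← mul_assoc, hXR, one_mul]
  rw [e1, map_sub, map_neg,
    htr _ (mul_mem (mul_mem hRm (star_mem hRm)) (star_mem hBm)) _ hXm, e2, vst_star, m1, m2]
  simp

/-! ### spectral bounds -/

theorem norm_pX_le (B : H →L[ℂ] H) {t : ℝ} (ht0 : 0 ≤ t) (ht1 : t ≤ 1) :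
    ‖pX B t‖ ≤ 1 + ‖B‖ := by
  calc ‖pX B t‖ ≤ ‖(1 : H →L[ℂ] H)‖ + ‖(t : ℂ) • B‖ := norm_sub_le _ _
    _ ≤ 1 + ‖B‖ := by
      gcongr
      · exact ContinuousLinearMap.norm_id_le
      · rw [norm_smul, Complex.norm_real, Real.norm_of_nonneg ht0]
        calc t * ‖B‖ ≤ 1 * ‖B‖ := by gcongr
          _ = ‖B‖ := one_mul _

theorem spectrum_pY_subset (B : H →L[ℂ] H) (hB : Summable fun n : ℕ => ‖B ^ n‖)
    (hS : 0 < ∑' n : ℕ, ‖B ^ n‖) {t : ℝ} (ht0 : 0 ≤ t) (ht1 : t ≤ 1) :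
    spectrum ℝ (pY B t) ⊆ Set.Icc (((∑' n : ℕ, ‖B ^ n‖)⁻¹) ^ 2) ((1 + ‖B‖) ^ 2) := by
  have hbelow : ∀ v, (∑' n : ℕ, ‖B ^ n‖)⁻¹ * ‖v‖ ≤ ‖pX B t v‖ := by
    intro v
    have h1 := A0_norm_le_tsum_mul_norm_one_sub ((t : ℂ) • B)
      (summable_norm_smul_pow B hB ht0 ht1) v
    have h2 : ‖v‖ ≤ (∑' n : ℕ, ‖B ^ n‖) * ‖pX B t v‖ :=
      h1.trans (mul_le_mul_of_nonneg_right (tsum_norm_smul_pow_le B hB ht0 ht1) (norm_nonneg _))
    rw [inv_mul_le_iff₀ hS]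
    exact h2
  have h := A0_spectrum_star_mul_self_subset (pX B t) (∑' n : ℕ, ‖B ^ n‖)⁻¹
    (inv_nonneg.mpr hS.le) hbelow
  refine h.trans (Set.Icc_subset_Icc le_rfl ?_)
  have := norm_pX_le B ht0 ht1
  gcongr


/-! ### the two estimates -/

theorem norm_vst_deriv_le (ξ : H) (B : H →L[ℂ] H) (hB : Summable fun n : ℕ => ‖B ^ n‖)
    (hS : 0 < ∑' n : ℕ, ‖B ^ n‖)
    (htr : ∀ P ∈ (StarAlgebra.adjoin ℂ {B}).topologicalClosure,
      ∀ Q ∈ (StarAlgebra.adjoin ℂ {B}).topologicalClosure, vst ξ (P * Q) = vst ξ (Q * P))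
    (hmom : ∀ n : ℕ, 1 ≤ n → vst ξ (B ^ n) = 0)
    {t : ℝ} (ht0 : 0 ≤ t) (ht1 : t ≤ 1) (q : Polynomial ℝ) (η : ℝ) (hη : 0 ≤ η)
    (hq : ∀ x ∈ Set.Icc (((∑' n : ℕ, ‖B ^ n‖)⁻¹) ^ 2) ((1 + ‖B‖) ^ 2),
      |q.eval x - x⁻¹| ≤ η) :
    ‖vst ξ (Polynomial.aeval (pY B t) q * pYd B t)‖
      ≤ η * (‖ξ‖ ^ 2 * (∑' n : ℕ, ‖B ^ n‖) ^ 2 * (1 + ‖B‖) ^ 2 * (2 * ‖B‖ * (1 + ‖B‖))) := by
  have hXR : pX B t * pR B t = 1 := pX_mul_pR B hB ht0 ht1
  have hRX : pR B t * pX B t = 1 := pR_mul_pX B hB ht0 ht1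
  have hsRX : star (pR B t) * star (pX B t) = 1 := by rw [← star_mul, hXR, star_one]
  have hWY : pR B t * star (pR B t) * pY B t = 1 := by
    rw [pY, mul_assoc, ← mul_assoc (star (pR B t)), hsRX, one_mul, hRX]
  have hEq : Polynomial.aeval (pY B t) q = pR B t * star (pR B t)
      + pR B t * star (pR B t) * Polynomial.aeval (pY B t) (Polynomial.X * q - 1) := by
    rw [map_sub, map_mul, Polynomial.aeval_X, map_one, mul_sub, ← mul_assoc, hWY, one_mul,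
      mul_one]
    abel
  have hEn : ‖Polynomial.aeval (pY B t) (Polynomial.X * q - 1)‖ ≤ (1 + ‖B‖) ^ 2 * η := by
    rw [← cfc_polynomial _ (pY B t) (isSelfAdjoint_pY B t)]
    refine norm_cfc_le (by positivity) fun x hx => ?_
    have hx' := spectrum_pY_subset B hB hS ht0 ht1 hx
    have hxpos : 0 < x := lt_of_lt_of_le (by positivity) hx'.1
    have h1 : (Polynomial.X * q - 1 : Polynomial ℝ).eval x = x * (q.eval x - x⁻¹) := by
      simp only [Polynomial.eval_sub, Polynomial.eval_mul, Polynomial.eval_X, Polynomial.eval_one]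
      field_simp
    rw [h1, norm_mul, Real.norm_of_nonneg hxpos.le, Real.norm_eq_abs]
    exact mul_le_mul hx'.2 (hq x hx') (abs_nonneg _) (by positivity)
  have hW : ‖pR B t * star (pR B t)‖ ≤ (∑' n : ℕ, ‖B ^ n‖) ^ 2 := by
    have hR := norm_pR_le B hB ht0 ht1
    calc ‖pR B t * star (pR B t)‖ ≤ ‖pR B t‖ * ‖star (pR B t)‖ := norm_mul_le _ _
      _ = ‖pR B t‖ * ‖pR B t‖ := by rw [norm_star]
      _ ≤ (∑' n : ℕ, ‖B ^ n‖) * (∑' n : ℕ, ‖B ^ n‖) := by gcongr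
      _ = (∑' n : ℕ, ‖B ^ n‖) ^ 2 := by ring
  have hYd : ‖pYd B t‖ ≤ 2 * ‖B‖ * (1 + ‖B‖) := by
    have hX := norm_pX_le B ht0 ht1
    rw [pYd, norm_neg]
    calc ‖star B * pX B t + star (pX B t) * B‖
        ≤ ‖star B‖ * ‖pX B t‖ + ‖star (pX B t)‖ * ‖B‖ :=
          (norm_add_le _ _).trans (add_le_add (norm_mul_le _ _) (norm_mul_le _ _))
      _ = 2 * ‖B‖ * ‖pX B t‖ := by rw [norm_star, norm_star]; ring
      _ ≤ 2 * ‖B‖ * (1 + ‖B‖) := by gcongr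
  rw [hEq, add_mul, map_add, vst_RRYd ξ B hB htr hmom ht0 ht1, zero_add]
  calc ‖vst ξ (pR B t * star (pR B t) * Polynomial.aeval (pY B t) (Polynomial.X * q - 1)
          * pYd B t)‖
      ≤ ‖ξ‖ ^ 2 * ‖pR B t * star (pR B t) * Polynomial.aeval (pY B t) (Polynomial.X * q - 1)
          * pYd B t‖ := norm_vst_le _ _
    _ ≤ ‖ξ‖ ^ 2 * (‖pR B t * star (pR B t)‖
          * ‖Polynomial.aeval (pY B t) (Polynomial.X * q - 1)‖ * ‖pYd B t‖) := by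
        gcongr
        exact (norm_mul_le _ _).trans (mul_le_mul_of_nonneg_right (norm_mul_le _ _)
          (norm_nonneg _))
    _ ≤ ‖ξ‖ ^ 2 * ((∑' n : ℕ, ‖B ^ n‖) ^ 2 * ((1 + ‖B‖) ^ 2 * η)
          * (2 * ‖B‖ * (1 + ‖B‖))) := by gcongr
    _ = η * (‖ξ‖ ^ 2 * (∑' n : ℕ, ‖B ^ n‖) ^ 2 * (1 + ‖B‖) ^ 2 * (2 * ‖B‖ * (1 + ‖B‖))) := by
        ring

theorem norm_end_le (B : H →L[ℂ] H) (hB : Summable fun n : ℕ => ‖B ^ n‖)
    (hS : 1 ≤ ∑' n : ℕ, ‖B ^ n‖) (P q : Polynomial ℝ) (hP : Polynomial.derivative P = q)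
    (η : ℝ) (hη : 0 ≤ η)
    (hq : ∀ x ∈ Set.Icc (((∑' n : ℕ, ‖B ^ n‖)⁻¹) ^ 2) ((1 + ‖B‖) ^ 2),
      |q.eval x - x⁻¹| ≤ η) :
    ‖Polynomial.aeval (pY B 1) P - algebraMap ℝ (H →L[ℂ] H) (P.eval 1)
        - cfc Real.log (pY B 1)‖ ≤ η * (1 + ‖B‖) ^ 2 := by
  have hS0 : 0 < ∑' n : ℕ, ‖B ^ n‖ := lt_of_lt_of_le one_pos hS
  have hsp := spectrum_pY_subset B hB hS0 zero_le_one (le_refl (1 : ℝ))
  have ha : 0 < ((∑' n : ℕ, ‖B ^ n‖)⁻¹) ^ 2 := by positivity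
  have ha1 : ((∑' n : ℕ, ‖B ^ n‖)⁻¹) ^ 2 ≤ 1 :=
    pow_le_one₀ (by positivity) (inv_le_one_of_one_le₀ hS)
  have hb1 : 1 ≤ (1 + ‖B‖) ^ 2 := by nlinarith [norm_nonneg B]
  have hcfc : cfc (fun x => P.eval x - P.eval 1 - Real.log x) (pY B 1)
      = Polynomial.aeval (pY B 1) P - algebraMap ℝ (H →L[ℂ] H) (P.eval 1)
        - cfc Real.log (pY B 1) := by
    have hlog : ContinuousOn Real.log (spectrum ℝ (pY B 1)) :=
      Real.continuousOn_log.mono (fun x hx => (lt_of_lt_of_le ha (hsp hx).1).ne')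
    have hpol : ContinuousOn (fun x => P.eval x) (spectrum ℝ (pY B 1)) :=
      P.continuous.continuousOn
    rw [cfc_sub (fun x => P.eval x - P.eval 1) Real.log (pY B 1)
        (hpol.sub continuousOn_const) hlog,
      cfc_sub (fun x => P.eval x) (fun _ => P.eval 1) (pY B 1) hpol continuousOn_const,
      cfc_polynomial _ _ (isSelfAdjoint_pY B 1), cfc_const _ _ (isSelfAdjoint_pY B 1)]
  rw [← hcfc]
  refine norm_cfc_le (by positivity) fun x hx => ?_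
  have hx' := hsp hx
  have hderiv : ∀ y ∈ Set.Icc (((∑' n : ℕ, ‖B ^ n‖)⁻¹) ^ 2) ((1 + ‖B‖) ^ 2),
      HasDerivWithinAt (fun y => P.eval y - Real.log y) (q.eval y - y⁻¹)
        (Set.Icc (((∑' n : ℕ, ‖B ^ n‖)⁻¹) ^ 2) ((1 + ‖B‖) ^ 2)) y := by
    intro y hy
    have hy0 : y ≠ 0 := (lt_of_lt_of_le ha hy.1).ne'
    have h := (P.hasDerivAt y).fun_sub (Real.hasDerivAt_log hy0)
    rw [hP] at h
    exact h.hasDerivWithinAt
  have hmv := Convex.norm_image_sub_le_of_norm_hasDerivWithin_le hderiv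
    (fun y hy => by rw [Real.norm_eq_abs]; exact hq y hy) (convex_Icc _ _)
    (⟨ha1, hb1⟩ : (1 : ℝ) ∈ Set.Icc (((∑' n : ℕ, ‖B ^ n‖)⁻¹) ^ 2) ((1 + ‖B‖) ^ 2)) hx'
  rw [Real.log_one, sub_zero] at hmv
  have hx1 : ‖x - 1‖ ≤ (1 + ‖B‖) ^ 2 := by
    rw [Real.norm_eq_abs, abs_le]
    constructor <;> nlinarith [hx'.1, hx'.2]
  calc ‖P.eval x - P.eval 1 - Real.log x‖ = ‖P.eval x - Real.log x - P.eval 1‖ := by
        congr 1; ring
    _ ≤ η * ‖x - 1‖ := hmv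
    _ ≤ η * (1 + ‖B‖) ^ 2 := by gcongr

/-- Leaf A2 (FK): the Fuglede–Kadison identity along the path `1 - t B`. -/
theorem fk_zero (ξ : H) (B : H →L[ℂ] H) (hB : Summable fun n : ℕ => ‖B ^ n‖)
    (htr : ∀ P ∈ StarAlgebra.adjoin ℂ {B}, ∀ Q ∈ StarAlgebra.adjoin ℂ {B},
      inner ℂ ξ ((P * Q) ξ) = inner ℂ ξ ((Q * P) ξ))
    (hmom : ∀ n : ℕ, 1 ≤ n → inner ℂ ξ ((B ^ n) ξ) = 0) :
    inner ℂ ξ (cfc Real.log (star (1 - B) * (1 - B)) ξ) = 0 := by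
  rcases subsingleton_or_nontrivial H with hsub | hnt
  · rw [Subsingleton.elim ξ 0, inner_zero_left]
  have hS1 : 1 ≤ ∑' n : ℕ, ‖B ^ n‖ := by
    have h := hB.le_tsum 0 (fun n _ => norm_nonneg (B ^ n))
    simpa using h
  have hS : 0 < ∑' n : ℕ, ‖B ^ n‖ := lt_of_lt_of_le one_pos hS1
  have htrc := tr_closure ξ B htr
  have hK0 : 0 ≤ ‖ξ‖ ^ 2 * (∑' n : ℕ, ‖B ^ n‖) ^ 2 * (1 + ‖B‖) ^ 2 * (2 * ‖B‖ * (1 + ‖B‖))
      + ‖ξ‖ ^ 2 * (1 + ‖B‖) ^ 2 := by positivity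
  have key : ∀ η : ℝ, 0 < η → ‖vst ξ (cfc Real.log (pY B 1))‖
      ≤ η * (‖ξ‖ ^ 2 * (∑' n : ℕ, ‖B ^ n‖) ^ 2 * (1 + ‖B‖) ^ 2 * (2 * ‖B‖ * (1 + ‖B‖))
        + ‖ξ‖ ^ 2 * (1 + ‖B‖) ^ 2) := by
    intro η hη
    obtain ⟨q, hq⟩ := exists_polynomial_near_of_continuousOn
      (((∑' n : ℕ, ‖B ^ n‖)⁻¹) ^ 2) ((1 + ‖B‖) ^ 2) (fun x => x⁻¹)
      (continuousOn_inv₀.mono fun x hx =>
        (lt_of_lt_of_le (by positivity : (0:ℝ) < ((∑' n : ℕ, ‖B ^ n‖)⁻¹) ^ 2) hx.1).ne') η hη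
    have hq' : ∀ x ∈ Set.Icc (((∑' n : ℕ, ‖B ^ n‖)⁻¹) ^ 2) ((1 + ‖B‖) ^ 2),
        |q.eval x - x⁻¹| ≤ η := fun x hx => (hq x hx).le
    obtain ⟨P, hP⟩ := exists_antideriv q
    have hG : ∀ t ∈ Set.Icc (0 : ℝ) 1,
        HasDerivWithinAt (fun s => vst ξ (Polynomial.aeval (pY B s) P))
          (vst ξ (Polynomial.aeval (pY B t) q * pYd B t)) (Set.Icc 0 1) t := by
      intro t _
      have h := hasDerivAt_vst_aeval ξ (StarAlgebra.adjoin ℂ {B}) htr (hasDerivAt_pY B t)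
        (pY_mem B t) (pYd_mem B t) P
      rw [hP] at h
      exact h.hasDerivWithinAt
    have hbound : ∀ t ∈ Set.Icc (0 : ℝ) 1,
        ‖vst ξ (Polynomial.aeval (pY B t) q * pYd B t)‖
          ≤ η * (‖ξ‖ ^ 2 * (∑' n : ℕ, ‖B ^ n‖) ^ 2 * (1 + ‖B‖) ^ 2 * (2 * ‖B‖ * (1 + ‖B‖))) :=
      fun t ht => norm_vst_deriv_le ξ B hB hS htrc hmom ht.1 ht.2 q η hη.le hq'
    have hmv := Convex.norm_image_sub_le_of_norm_hasDerivWithin_le hG hbound (convex_Icc 0 1)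
      (Set.left_mem_Icc.mpr zero_le_one) (Set.right_mem_Icc.mpr zero_le_one)
    have h0 : Polynomial.aeval (1 : H →L[ℂ] H) P = algebraMap ℝ (H →L[ℂ] H) (P.eval 1) := by
      rw [← Polynomial.aeval_algebraMap_apply_eq_algebraMap_eval, map_one]
    rw [pY_zero, h0, sub_zero, norm_one, mul_one, ← map_sub] at hmv
    have hend := norm_end_le B hB hS1 P q hP η hη.le hq'
    have hsplit : cfc Real.log (pY B 1)
        = (Polynomial.aeval (pY B 1) P - algebraMap ℝ (H →L[ℂ] H) (P.eval 1))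
          - (Polynomial.aeval (pY B 1) P - algebraMap ℝ (H →L[ℂ] H) (P.eval 1)
            - cfc Real.log (pY B 1)) := by abel
    rw [hsplit, map_sub]
    calc ‖vst ξ (Polynomial.aeval (pY B 1) P - algebraMap ℝ (H →L[ℂ] H) (P.eval 1))
          - vst ξ (Polynomial.aeval (pY B 1) P - algebraMap ℝ (H →L[ℂ] H) (P.eval 1)
            - cfc Real.log (pY B 1))‖
        ≤ ‖vst ξ (Polynomial.aeval (pY B 1) P - algebraMap ℝ (H →L[ℂ] H) (P.eval 1))‖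
          + ‖vst ξ (Polynomial.aeval (pY B 1) P - algebraMap ℝ (H →L[ℂ] H) (P.eval 1)
            - cfc Real.log (pY B 1))‖ := norm_sub_le _ _
      _ ≤ η * (‖ξ‖ ^ 2 * (∑' n : ℕ, ‖B ^ n‖) ^ 2 * (1 + ‖B‖) ^ 2 * (2 * ‖B‖ * (1 + ‖B‖)))
          + ‖ξ‖ ^ 2 * (η * (1 + ‖B‖) ^ 2) :=
          add_le_add hmv ((norm_vst_le _ _).trans
            (mul_le_mul_of_nonneg_left hend (by positivity)))
      _ = η * (‖ξ‖ ^ 2 * (∑' n : ℕ, ‖B ^ n‖) ^ 2 * (1 + ‖B‖) ^ 2 * (2 * ‖B‖ * (1 + ‖B‖))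
          + ‖ξ‖ ^ 2 * (1 + ‖B‖) ^ 2) := by ring
  have hz : ‖vst ξ (cfc Real.log (pY B 1))‖ ≤ 0 := by
    refine le_of_forall_pos_le_add fun ε hε => ?_
    have h := key (ε / (‖ξ‖ ^ 2 * (∑' n : ℕ, ‖B ^ n‖) ^ 2 * (1 + ‖B‖) ^ 2
      * (2 * ‖B‖ * (1 + ‖B‖)) + ‖ξ‖ ^ 2 * (1 + ‖B‖) ^ 2 + 1)) (by positivity)
    refine h.trans ?_
    rw [zero_add, div_mul_eq_mul_div, div_le_iff₀ (by positivity)]
    nlinarith
  rw [← pY_one, ← vst_apply]
  exact norm_le_zero_iff.mp hz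

end Crest.Agent.Helper96.S0151
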