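import Crest.Agent.Helper98.S0151.Zero
import Crest.Agent.Helper22.S0151.Main
import Crest.Agent.Helper95.S0151.Tau
import Crest.Agent.Helper88.S0151.Sum
import Crest.Agent.Helper73.S0151.Quasi
import Crest.Agent.Helper24.S0151.Trace

/-!
# S0151 — final assembly (helper96, coordinator of the S0151 squad)

`vectorDet vacuumVector (T - z) = ‖z‖` for the weighted shift `T` of `Def_ProductShift`.

* `z = 0`: leaf C9c `vectorDet_zero` (helper98; uses C9a, C9b, C6a and the covariant-shift
  calculus C1, C3, C4, C5, C7).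
* `z ≠ 0`: leaf A3 `vectorDet_sub_smul` (helper22; uses A0 helper69, A1 helper72, A2 helper99)
  applied to the vacuum vector, with
  - quasinilpotency `‖T ^ n‖ ≤ r ^ n` eventually: C6b `dropSum_rate` (helper88) and
    C8 `norm_pow_le` (helper73),
  - the trace property on the star-algebra generated by `T`: C7 `tau_comm` (helper24),
  - vanishing moments: C8 `tau_pow` (helper73),
  - `‖vacuumVector‖ = 1`: C5 (helper95).

The complete paper proof is in `notes/s0151/PROOF.md`.
-/

set_option autoImplicit false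

open MeasureTheory Crest.AnalysisR.ProductShift
open scoped ENNReal ComplexConjugate

namespace Crest.Agent.Helper96.S0151

theorem final
    (θ c : ℕ → ℝ) (hθ : ∀ i, 0 < θ i ∧ θ i < 1) (hc : ∀ i, 0 ≤ c i)
    (hpos : ∀ᵐ x ∂cubeMeasure, 0 < weight θ c x)
    (hlog : ∫⁻ x, ENNReal.ofReal (- Real.log (weight θ c x)) ∂cubeMeasure = ⊤)
    (T : pairSpace →L[ℂ] pairSpace) (hT : IsWeightedShift θ c T) (z : ℂ) :
    vectorDet vacuumVector (T - z • (1 : pairSpace →L[ℂ] pairSpace)) = ‖z‖ := by
  by_cases hz : z = 0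
  · subst hz
    rw [zero_smul, sub_zero, norm_zero]
    exact Crest.Agent.Helper98.S0151.vectorDet_zero θ c hθ hc hpos hlog T hT
  · refine Crest.Agent.Helper22.S0151.vectorDet_sub_smul vacuumVector
      Crest.Agent.Helper95.S0151.norm_vacuumVector T ?_ ?_ ?_ z hz
    · intro r hr
      obtain ⟨N, n₀, h⟩ := Crest.Agent.Helper88.S0151.dropSum_rate θ c hθ hc hlog r hr
      exact ⟨n₀, fun n hn =>
        (Crest.Agent.Helper73.S0151.norm_pow_le θ c hθ hc T hT N n).trans (h n hn)⟩
    · intro P hP Q hQ
      exact Crest.Agent.Helper24.S0151.tau_comm θ c T hT P hP Q hQ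
    · intro n hn
      exact Crest.Agent.Helper73.S0151.tau_pow θ c T hT n hn

end Crest.Agent.Helper96.S0151
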