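import Crest.Agent.Helper96.S0151.Blueprint

/-!
# S0151 — assembly DRAFT against the Blueprint (uses `sorry` through the Blueprint; NEVER import).
The real assembly is `Final.lean`, which imports the leaves instead of the Blueprint.
-/

set_option autoImplicit false

open MeasureTheory Crest.AnalysisR.ProductShift
open scoped ENNReal ComplexConjugate

namespace Crest.Agent.Helper96.S0151.FinalDraft

open Crest.Agent.Helper96.S0151 Crest.Agent.Helper96.S0151.Blueprint

theorem final
    (θ c : ℕ → ℝ) (hθ : ∀ i, 0 < θ i ∧ θ i < 1) (hc : ∀ i, 0 ≤ c i)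
    (hpos : ∀ᵐ x ∂cubeMeasure, 0 < weight θ c x)
    (hlog : ∫⁻ x, ENNReal.ofReal (- Real.log (weight θ c x)) ∂cubeMeasure = ⊤)
    (T : pairSpace →L[ℂ] pairSpace) (hT : IsWeightedShift θ c T) (z : ℂ) :
    vectorDet vacuumVector (T - z • (1 : pairSpace →L[ℂ] pairSpace)) = ‖z‖ := by
  by_cases hz : z = 0
  · subst hz
    rw [zero_smul, sub_zero, norm_zero]
    exact vectorDet_zero θ c hθ hc hpos hlog T hT
  · refine vectorDet_sub_smul vacuumVector norm_vacuumVector T ?_ ?_ ?_ z hz
    · intro r hr
      obtain ⟨N, n₀, h⟩ := dropSum_rate θ c hθ hc hlog r hr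
      exact ⟨n₀, fun n hn => (norm_pow_le θ c hθ hc T hT N n).trans (h n hn)⟩
    · intro P hP Q hQ
      exact tau_comm θ c T hT P hP Q hQ
    · intro n hn
      exact tau_pow θ c T hT n hn

end Crest.Agent.Helper96.S0151.FinalDraft
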